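import Crest.Agent.R153.CompB.Prog

/-! Soundness and completeness of the table check for nested power means. -/

set_option autoImplicit false

namespace Crest.Agent.R153.CompB

open CompA PR Filter Topology

noncomputable def avgR {β : Type} (L : List β) (f : β → ℝ) : ℝ := (L.map f).sum / (L.length : ℝ)

section avg
variable {β : Type} {L : List β}

theorem cast_avg (L : List β) (f : β → ℚ) : ((avg L f : ℚ) : ℝ) = avgR L fun x => (f x : ℝ) := by
  unfold avg avgR
  push_cast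
  rw [List.map_map]
  rfl

theorem avgR_mono {f g : β → ℝ} (h : ∀ x ∈ L, f x ≤ g x) : avgR L f ≤ avgR L g :=
  div_le_div_of_nonneg_right (List.sum_le_sum h) (Nat.cast_nonneg _)

theorem avgR_congr {f g : β → ℝ} (h : ∀ x ∈ L, f x = g x) : avgR L f = avgR L g :=
  le_antisymm (avgR_mono fun x hx => (h x hx).le) (avgR_mono fun x hx => (h x hx).ge)

theorem avgR_const (hL : L ≠ []) (c : ℝ) : avgR L (fun _ => c) = c := by
  have : (L.length : ℝ) ≠ 0 := by simpa using hL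
  unfold avgR
  simp only [List.map_const', List.sum_replicate, nsmul_eq_mul]
  field_simp

theorem avgR_mul_left (L : List β) (c : ℝ) (f : β → ℝ) :
    avgR L (fun x => c * f x) = c * avgR L f := by
  unfold avgR
  rw [List.sum_map_mul_left, mul_div_assoc]

theorem avgR_add_const (hL : L ≠ []) (f : β → ℝ) (c : ℝ) :
    avgR L (fun x => f x + c) = avgR L f + c := by
  conv_rhs => rw [← avgR_const hL c]
  unfold avgR
  rw [List.sum_map_add, add_div]

end avg

def relR (b : Bool) (x y : ℝ) : Prop := if b then x ≤ y else y ≤ x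

theorem rel_iff (b : Bool) (x y : ℚ) : rel b x y = true ↔ relR b x y := by
  cases b <;> simp [rel, relR, rle]

theorem relR.trans {b : Bool} {x y z : ℝ} (h : relR b x y) (h' : relR b y z) : relR b x z := by
  cases b <;> simp only [relR, if_true, Bool.false_eq_true, if_false] at * <;> linarith

theorem relR.avg {b : Bool} {β : Type} {L : List β} {f g : β → ℝ}
    (h : ∀ x ∈ L, relR b (f x) (g x)) : relR b (avgR L f) (avgR L g) := by
  cases b <;> simp only [relR, if_true, Bool.false_eq_true, if_false] at * <;> exact avgR_mono h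

theorem relR_rpow {b : Bool} {x y m : ℝ} (hx : 0 ≤ x) (hy : 0 ≤ y) (hm : 0 < m) :
    relR b (x ^ m) (y ^ m) ↔ relR b x y := by
  cases b <;> simp only [relR, if_true, Bool.false_eq_true, if_false]
  · exact Real.rpow_le_rpow_iff hy hx hm
  · exact Real.rpow_le_rpow_iff hx hy hm

theorem relR.pow {b : Bool} {x y : ℝ} (h : relR b x y) (hx : 0 ≤ x) (hy : 0 ≤ y) (n : ℕ) :
    relR b (x ^ n) (y ^ n) := by
  cases b <;> simp only [relR, if_true, Bool.false_eq_true, if_false] at *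
  · exact pow_le_pow_left₀ hy h n
  · exact pow_le_pow_left₀ hx h n

/-- nested power means on prefixes of layers; `n` levels remain, the next exponent is `e / R` -/
noncomputable def G (Lay : List (List ℕ)) (W : List (List ℕ) → ℝ) (R : ℕ) :
    ℕ → ℕ → List (List ℕ) → ℝ
  | 0, _, pre => W pre
  | n + 1, e, pre =>
    (avgR Lay fun v => G Lay W R n (e + 1) (pre ++ [v]) ^ ((e : ℝ) / R)) ^ (1 / ((e : ℝ) / R))

theorem snoc_mem {β : Type} {L : List β} {d : ℕ} {pre : List β} (h : pre ∈ allL L d) {v : β}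
    (hv : v ∈ L) : pre ++ [v] ∈ allL L (d + 1) := by
  rw [mem_allL] at h ⊢
  refine ⟨by simp [h.1], fun x hx => ?_⟩
  rcases List.mem_append.1 hx with hx | hx
  · exact h.2 x hx
  · rw [List.mem_singleton.1 hx]; exact hv

theorem ck_iff (b : Bool) (R J r e : ℕ) (Lay : List (List ℕ)) (W Y : List (List ℕ) → ℚ) :
    ck b R J r e Lay W Y = true ↔
      (∀ d ≤ r, ∀ pre ∈ allL Lay (d + 1), (0 : ℝ) < Y pre) ∧
      (∀ pre ∈ allL Lay (r + 1), relR b (W pre) ((Y pre : ℝ) ^ (R * J))) ∧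
      ∀ d < r, ∀ pre ∈ allL Lay (d + 1),
        relR b (avgR Lay fun v => (Y (pre ++ [v]) : ℝ) ^ ((e + d) * J))
          ((Y pre : ℝ) ^ ((e + d) * J)) := by
  simp only [ck, Bool.and_eq_true, List.all_eq_true, List.mem_range, rel_iff, cast_avg,
    Nat.lt_succ_iff, rle, Bool.not_eq_true', decide_eq_false_iff_not, not_le, Rat.cast_pos,
    Rat.cast_pow]

section
variable {Lay : List (List ℕ)} (hL : Lay ≠ []) {W : List (List ℕ) → ℝ} {R r : ℕ} (hR : 0 < R)
  {lo hi : ℝ} (hlo : 0 < lo) (hW : ∀ pre ∈ allL Lay (r + 1), lo ≤ W pre ∧ W pre ≤ hi)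

include hL hR hlo hW in
theorem G_mem : ∀ (n d e : ℕ), d + n = r → 0 < e → ∀ pre ∈ allL Lay (d + 1),
    lo ≤ G Lay W R n e pre ∧ G Lay W R n e pre ≤ hi
  | 0, d, e, h, _, pre, hp => hW pre (by rw [← h]; exact hp)
  | n + 1, d, e, h, he, pre, hp => by
    have hm : (0 : ℝ) < (e : ℝ) / R := by positivity
    have ih := fun v (hv : v ∈ Lay) =>
      G_mem n (d + 1) (e + 1) (by omega) (by omega) _ (snoc_mem hp hv)
    obtain ⟨v₀, hv₀⟩ := List.exists_mem_of_ne_nil Lay hL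
    have hhi : 0 < hi := hlo.trans_le ((ih v₀ hv₀).1.trans (ih v₀ hv₀).2)
    have h1 : lo ^ ((e : ℝ) / R) ≤ avgR Lay fun v =>
        G Lay W R n (e + 1) (pre ++ [v]) ^ ((e : ℝ) / R) := by
      rw [← avgR_const hL (lo ^ ((e : ℝ) / R))]
      exact avgR_mono fun v hv => Real.rpow_le_rpow hlo.le (ih v hv).1 hm.le
    have h2 : (avgR Lay fun v => G Lay W R n (e + 1) (pre ++ [v]) ^ ((e : ℝ) / R)) ≤
        hi ^ ((e : ℝ) / R) := by
      rw [← avgR_const hL (hi ^ ((e : ℝ) / R))]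
      exact avgR_mono fun v hv => Real.rpow_le_rpow (hlo.le.trans (ih v hv).1) (ih v hv).2 hm.le
    have h0 : 0 ≤ lo ^ ((e : ℝ) / R) := by positivity
    simp only [G, one_div]
    constructor
    · exact (Real.rpow_rpow_inv hlo.le hm.ne').symm.le.trans
        (Real.rpow_le_rpow h0 h1 (inv_nonneg.2 hm.le))
    · exact (Real.rpow_le_rpow (h0.trans h1) h2 (inv_nonneg.2 hm.le)).trans
        (Real.rpow_rpow_inv hhi.le hm.ne').le

include hL hR hlo hW in
theorem G_pos {n d e : ℕ} (h : d + n = r) (he : 0 < e) {pre : List (List ℕ)}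
    (hp : pre ∈ allL Lay (d + 1)) : 0 < G Lay W R n e pre :=
  hlo.trans_le (G_mem hL hR hlo hW n d e h he pre hp).1

include hL hR hlo hW in
theorem G_step {n d e : ℕ} (h : d + (n + 1) = r) (he : 0 < e) {pre : List (List ℕ)}
    (hp : pre ∈ allL Lay (d + 1)) : G Lay W R (n + 1) e pre ^ ((e : ℝ) / R) =
      avgR Lay fun v => G Lay W R n (e + 1) (pre ++ [v]) ^ ((e : ℝ) / R) := by
  have hm : (0 : ℝ) < (e : ℝ) / R := by positivity
  simp only [G, one_div]
  refine Real.rpow_inv_rpow ?_ hm.ne'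
  rw [← avgR_const hL 0]
  exact avgR_mono fun v hv => Real.rpow_nonneg
    (G_pos hL hR hlo hW (d := d + 1) (by omega) (by omega) (snoc_mem hp hv)).le _

end

theorem pow_rpow_div {y : ℝ} (hy : 0 ≤ y) {R : ℕ} (hR : 0 < R) (J e : ℕ) :
    (y ^ (R * J)) ^ ((e : ℝ) / R) = y ^ (e * J) := by
  have : (R : ℝ) ≠ 0 := by positivity
  rw [← Real.rpow_natCast, ← Real.rpow_mul hy, ← Real.rpow_natCast]
  congr 1
  push_cast
  field_simp

section
variable {Lay : List (List ℕ)} (hL : Lay ≠ []) {W : List (List ℕ) → ℚ} {R r : ℕ} (hR : 0 < R)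
  {lo hi : ℝ} (hlo : 0 < lo) (hW : ∀ pre ∈ allL Lay (r + 1), lo ≤ W pre ∧ W pre ≤ hi)
  {e₀ : ℕ} (he : 0 < e₀)

include hL hR hlo hW he in
theorem ck_sound {b : Bool} {J : ℕ} {Y : List (List ℕ) → ℚ} (h : ck b R J r e₀ Lay W Y = true) :
    ∀ (n d : ℕ), d + n = r → ∀ pre ∈ allL Lay (d + 1),
      relR b (G Lay (fun p => (W p : ℝ)) R n (e₀ + d) pre) ((Y pre : ℝ) ^ (R * J)) := by
  obtain ⟨h1, h2, h3⟩ := (ck_iff _ _ _ _ _ _ _ _).1 h
  intro n
  induction n with
  | zero => intro d hd pre hp; exact h2 pre (by rw [← hd]; exact hp)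
  | succ n ih =>
    intro d hd pre hp
    have he' : 0 < e₀ + d := by omega
    have hm : (0 : ℝ) < ((e₀ + d : ℕ) : ℝ) / R := by positivity
    have hY := h1 d (by omega) pre hp
    rw [← relR_rpow (G_pos hL hR hlo hW hd he' hp).le (by positivity) hm,
      G_step hL hR hlo hW hd he' hp, pow_rpow_div hY.le hR]
    refine relR.trans (relR.avg fun v hv => ?_) (h3 d (by omega) pre hp)
    have hv' := snoc_mem hp hv
    have hY' := h1 (d + 1) (by omega) _ hv'
    rw [← pow_rpow_div hY'.le hR, relR_rpow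
      (G_pos hL hR hlo hW (d := d + 1) (by omega) (by omega) hv').le (by positivity) hm]
    exact ih (d + 1) (by omega) _ hv'

theorem single_mem {β : Type} {L : List β} {x : β} (hx : x ∈ L) : [x] ∈ allL L (0 + 1) :=
  (mem_allL _ _ _).2 ⟨rfl, by simpa using hx⟩

include hL hR hlo hW he in
theorem upper_sound {J : ℕ} {Y : List (List ℕ) → ℚ} (h : ck true R J r e₀ Lay W Y = true) :
    (avgR Lay fun x => Real.log (G Lay (fun p => (W p : ℝ)) R r e₀ [x])) ≤
      (avg Lay fun x => ((R * J : ℕ) : ℚ) * (Y [x] - 1) : ℚ) := by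
  rw [cast_avg]
  refine avgR_mono fun x hx => ?_
  have h1 := ck_sound hL hR hlo hW he h r 0 (by omega) [x] (single_mem hx)
  have h2 := ((ck_iff _ _ _ _ _ _ _ _).1 h).1 0 (by omega) [x] (single_mem hx)
  have h3 := Real.log_le_log (G_pos hL hR hlo hW (zero_add r) he (single_mem hx)) h1
  rw [Real.log_pow] at h3
  refine h3.trans ?_
  rw [Rat.cast_mul, Rat.cast_natCast, Rat.cast_sub, Rat.cast_one]
  exact mul_le_mul_of_nonneg_left (Real.log_le_sub_one_of_pos h2) (Nat.cast_nonneg _)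

include hL hR hlo hW he in
theorem lower_sound {J : ℕ} {Y : List (List ℕ) → ℚ} (h : ck false R J r e₀ Lay W Y = true) :
    ((avg Lay fun x => ((R * J : ℕ) : ℚ) * (1 - 1 / Y [x]) : ℚ) : ℝ) ≤
      avgR Lay fun x => Real.log (G Lay (fun p => (W p : ℝ)) R r e₀ [x]) := by
  rw [cast_avg]
  refine avgR_mono fun x hx => ?_
  have h1 := ck_sound hL hR hlo hW he h r 0 (by omega) [x] (single_mem hx)
  have h2 := ((ck_iff _ _ _ _ _ _ _ _).1 h).1 0 (by omega) [x] (single_mem hx)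
  have h3 := Real.log_le_log (pow_pos h2 _) h1
  rw [Real.log_pow] at h3
  refine le_trans ?_ h3
  rw [Rat.cast_mul, Rat.cast_natCast, Rat.cast_sub, Rat.cast_one, Rat.cast_div, Rat.cast_one,
    one_div]
  exact mul_le_mul_of_nonneg_left (Real.one_sub_inv_le_log_of_pos h2) (Nat.cast_nonneg _)

end

/-- perturbed `N`-th root -/
noncomputable def tg (σ : ℝ) (N n : ℕ) (g : ℝ) : ℝ := Real.exp ((Real.log g + σ * n / N) / N)

theorem tg_pos (σ : ℝ) (N n : ℕ) (g : ℝ) : 0 < tg σ N n g := Real.exp_pos _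

theorem tg_pow (σ : ℝ) {R J : ℕ} (hR : 0 < R) (hJ : 0 < J) (n e : ℕ) {g : ℝ} (hg : 0 < g) :
    tg σ (R * J) n g ^ (e * J) =
      Real.exp (σ * n / (R * J : ℕ) * ((e : ℝ) / R)) * g ^ ((e : ℝ) / R) := by
  have h1 : (R : ℝ) ≠ 0 := by positivity
  have h2 : (J : ℝ) ≠ 0 := by positivity
  rw [tg, ← Real.exp_nat_mul, Real.rpow_def_of_pos hg, ← Real.exp_add]
  congr 1
  push_cast
  field_simp
  ring

theorem exists_between (b : Bool) {N : ℕ} (hN : 0 < N) (n : ℕ) (g : ℝ) : ∃ y : ℚ, (0 : ℝ) < y ∧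
    relR b (tg (if b then 1 else -1) N n g) y ∧ relR b y (tg (if b then 1 else -1) N (n + 1) g) := by
  have hN' : (0 : ℝ) < N := by exact_mod_cast hN
  cases b
  · have : tg (-1) N (n + 1) g < tg (-1) N n g := by
      refine Real.exp_lt_exp.2 (div_lt_div_of_pos_right ?_ hN')
      have : -1 * ((n + 1 : ℕ) : ℝ) / N < -1 * (n : ℝ) / N :=
        div_lt_div_of_pos_right (by push_cast; linarith) hN'
      linarith
    obtain ⟨y, h1, h2⟩ := exists_rat_btwn this
    exact ⟨y, (tg_pos _ _ _ _).trans h1, h2.le, h1.le⟩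
  · have : tg 1 N n g < tg 1 N (n + 1) g := by
      refine Real.exp_lt_exp.2 (div_lt_div_of_pos_right ?_ hN')
      have : 1 * (n : ℝ) / N < 1 * ((n + 1 : ℕ) : ℝ) / N :=
        div_lt_div_of_pos_right (by push_cast; linarith) hN'
      linarith
    obtain ⟨y, h1, h2⟩ := exists_rat_btwn this
    exact ⟨y, (tg_pos _ _ _ _).trans h1, h1.le, h2.le⟩

theorem tendsto_root (L C : ℝ) {R : ℕ} (hR : 0 < R) :
    Tendsto (fun J : ℕ => ((R * J : ℕ) : ℝ) *
      (Real.exp ((L + C / (R * J : ℕ)) / (R * J : ℕ)) - 1)) atTop (𝓝 L) := by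
  have h1 : HasDerivAt (fun t : ℝ => Real.exp ((L + C * t) * t)) L 0 := by
    have a1 : HasDerivAt (fun t : ℝ => (L + C * t) * t) L 0 := by
      have := (((hasDerivAt_id (0 : ℝ)).const_mul C).const_add L).mul (hasDerivAt_id (0 : ℝ))
      exact this.congr_deriv (by simp)
    exact a1.exp.congr_deriv (by simp)
  have h2 := h1.tendsto_slope_zero_right
  have h3 : Tendsto (fun J : ℕ => (((R * J : ℕ) : ℝ))⁻¹) atTop (𝓝[>] 0) :=
    tendsto_inv_atTop_nhdsGT_zero.comp (tendsto_natCast_atTop_atTop.comp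
      (tendsto_id.const_mul_atTop' hR))
  refine (h2.comp h3).congr fun J => ?_
  simp [div_eq_mul_inv]

section
variable {Lay : List (List ℕ)} (hL : Lay ≠ []) {W : List (List ℕ) → ℚ} {R r : ℕ} (hR : 0 < R)
  {lo hi : ℝ} (hlo : 0 < lo) (hW : ∀ pre ∈ allL Lay (r + 1), lo ≤ W pre ∧ W pre ≤ hi)
  {e₀ : ℕ} (he : 0 < e₀)

include hL hR hlo hW he in
theorem ck_complete (b : Bool) {J : ℕ} (hJ : 0 < J) : ∃ Y : List (List ℕ) → ℚ,
    ∀ Y' : List (List ℕ) → ℚ, (∀ d ≤ r, ∀ pre ∈ allL Lay (d + 1), Y' pre = Y pre) →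
      ck b R J r e₀ Lay W Y' = true ∧ ∀ x ∈ Lay, (0 : ℝ) < Y' [x] ∧
        relR b (Y' [x]) (tg (if b then 1 else -1) (R * J) (r + 1)
          (G Lay (fun p => (W p : ℝ)) R r e₀ [x])) := by
  choose y hy using fun (n : ℕ) (g : ℝ) => exists_between b (Nat.mul_pos hR hJ) n g
  refine ⟨fun pre => y (r + 1 - pre.length)
    (G Lay (fun p => (W p : ℝ)) R (r + 1 - pre.length) (e₀ + (pre.length - 1)) pre), fun Y' hY => ?_⟩
  have key : ∀ n d, d + n = r → ∀ pre ∈ allL Lay (d + 1),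
      Y' pre = y n (G Lay (fun p => (W p : ℝ)) R n (e₀ + d) pre) := by
    intro n d h pre hp
    rw [hY d (by omega) pre hp]
    simp only [((mem_allL _ _ _).1 hp).1, Nat.add_sub_cancel]
    rw [show r + 1 - (d + 1) = n by omega]
  refine ⟨(ck_iff _ _ _ _ _ _ _ _).2 ⟨fun d hd pre hp => ?_, fun pre hp => ?_,
    fun d hd pre hp => ?_⟩, fun x hx => ?_⟩
  · rw [key (r - d) d (by omega) pre hp]
    exact (hy _ _).1
  · rw [key 0 r rfl pre hp]
    have h1 := (hy 0 (W pre)).2.1.pow (tg_pos _ _ _ _).le (hy 0 (W pre)).1.le (R * J)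
    have hR' : (R : ℝ) ≠ 0 := by positivity
    rw [tg_pow _ hR hJ _ _ (hlo.trans_le (hW pre hp).1), div_self hR'] at h1
    simpa [G] using h1
  · obtain ⟨n, hn⟩ : ∃ n, d + (n + 1) = r := ⟨r - d - 1, by omega⟩
    have he' : 0 < e₀ + d := by omega
    rw [key (n + 1) d hn pre hp]
    refine relR.trans ?_ ((hy _ _).2.1.pow (tg_pos _ _ _ _).le (hy _ _).1.le _)
    rw [tg_pow _ hR hJ _ _ (G_pos hL hR hlo hW hn he' hp), G_step hL hR hlo hW hn he' hp,
      ← avgR_mul_left]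
    refine relR.avg fun v hv => ?_
    have hv' := snoc_mem hp hv
    rw [key n (d + 1) (by omega) _ hv', ← tg_pow _ hR hJ _ _
      (G_pos hL hR hlo hW (d := d + 1) (by omega) (by omega) hv')]
    exact (hy _ _).2.2.pow (hy _ _).1.le (tg_pos _ _ _ _).le _
  · rw [key r 0 (by omega) [x] (single_mem hx)]
    exact ⟨(hy _ _).1, (hy _ _).2.2⟩

include hL hR hlo hW he in
theorem upper_complete {ε : ℝ} (hε : 0 < ε) : ∀ᶠ J : ℕ in atTop, ∃ Y : List (List ℕ) → ℚ,
    ∀ Y' : List (List ℕ) → ℚ, (∀ d ≤ r, ∀ pre ∈ allL Lay (d + 1), Y' pre = Y pre) →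
      ck true R J r e₀ Lay W Y' = true ∧
        ((avg Lay fun x => ((R * J : ℕ) : ℚ) * (Y' [x] - 1) : ℚ) : ℝ) ≤
          (avgR Lay fun x => Real.log (G Lay (fun p => (W p : ℝ)) R r e₀ [x])) + ε := by
  have h1 := (eventually_all_finite Lay.finite_toSet).2 fun x _ =>
    (tendsto_root (Real.log (G Lay (fun p => (W p : ℝ)) R r e₀ [x])) (1 * (r + 1 : ℕ))
      hR).eventually (eventually_le_nhds (lt_add_of_pos_right _ hε))
  filter_upwards [h1, eventually_gt_atTop 0] with J hJ hJ0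
  obtain ⟨Y, hY⟩ := ck_complete hL hR hlo hW he true hJ0
  refine ⟨Y, fun Y' h => ⟨(hY Y' h).1, ?_⟩⟩
  rw [cast_avg, ← avgR_add_const hL]
  refine avgR_mono fun x hx => le_trans ?_ (hJ x hx)
  have h2 : (Y' [x] : ℝ) ≤ _ := ((hY Y' h).2 x hx).2
  rw [Rat.cast_mul, Rat.cast_natCast, Rat.cast_sub, Rat.cast_one]
  exact mul_le_mul_of_nonneg_left (sub_le_sub_right h2 1) (Nat.cast_nonneg _)

include hL hR hlo hW he in
theorem lower_complete {ε : ℝ} (hε : 0 < ε) : ∀ᶠ J : ℕ in atTop, ∃ Y : List (List ℕ) → ℚ,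
    ∀ Y' : List (List ℕ) → ℚ, (∀ d ≤ r, ∀ pre ∈ allL Lay (d + 1), Y' pre = Y pre) →
      ck false R J r e₀ Lay W Y' = true ∧
        (avgR Lay fun x => Real.log (G Lay (fun p => (W p : ℝ)) R r e₀ [x])) ≤
          ((avg Lay fun x => ((R * J : ℕ) : ℚ) * (1 - 1 / Y' [x]) : ℚ) : ℝ) + ε := by
  have h1 := (eventually_all_finite Lay.finite_toSet).2 fun x _ =>
    (tendsto_root (-Real.log (G Lay (fun p => (W p : ℝ)) R r e₀ [x])) (r + 1 : ℕ)
      hR).eventually (eventually_le_nhds (lt_add_of_pos_right _ hε))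
  filter_upwards [h1, eventually_gt_atTop 0] with J hJ hJ0
  obtain ⟨Y, hY⟩ := ck_complete hL hR hlo hW he false hJ0
  refine ⟨Y, fun Y' h => ⟨(hY Y' h).1, ?_⟩⟩
  rw [cast_avg, ← avgR_add_const hL]
  refine avgR_mono fun x hx => ?_
  have h2 : _ ≤ (Y' [x] : ℝ) := ((hY Y' h).2 x hx).2
  have h3 := hJ x hx
  have h4 := inv_anti₀ (tg_pos _ _ _ _) h2
  rw [tg, ← Real.exp_neg] at h4
  rw [Rat.cast_mul, Rat.cast_natCast, Rat.cast_sub, Rat.cast_one, Rat.cast_div, Rat.cast_one,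
    one_div]
  have h5 : -((Real.log (G Lay (fun p => (W p : ℝ)) R r e₀ [x]) +
      (if false = true then (1 : ℝ) else -1) * (r + 1 : ℕ) / (R * J : ℕ)) / (R * J : ℕ)) =
      (-Real.log (G Lay (fun p => (W p : ℝ)) R r e₀ [x]) + (r + 1 : ℕ) / (R * J : ℕ)) /
        (R * J : ℕ) := by
    simp only [Bool.false_eq_true, if_false]
    ring
  rw [h5] at h4
  have h6 := mul_le_mul_of_nonneg_left (sub_le_sub_right h4 1) (Nat.cast_nonneg (α := ℝ) (R * J))
  linarith

end

end Crest.Agent.R153.CompB
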