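import Crest.Agent.R153.CompA

/-! `fun_prop` support for primitive recursive functions. -/

set_option autoImplicit false

namespace Crest.Agent.R153.CompB

open Crest.Agent.Lib.RatPrimrec

/-- primitive recursive (as a `fun_prop` predicate) -/
@[fun_prop] def PR {α β : Type} [Primcodable α] [Primcodable β] (f : α → β) : Prop := Primrec f

namespace PR

variable {α β γ : Type} [Primcodable α] [Primcodable β] [Primcodable γ]

@[fun_prop] theorem id : PR (fun a : α => a) := Primrec.id
@[fun_prop] theorem const (b : β) : PR (fun _ : α => b) := Primrec.const b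
@[fun_prop] theorem comp {g : β → γ} {f : α → β} (hg : PR g) (hf : PR f) :
    PR (fun a => g (f a)) := Primrec.comp hg hf
@[fun_prop] theorem pair {f : α → β} {g : α → γ} (hf : PR f) (hg : PR g) :
    PR (fun a => (f a, g a)) := Primrec.pair hf hg
@[fun_prop] theorem fst {f : α → β × γ} (hf : PR f) : PR (fun a => (f a).1) :=
  Primrec.fst.comp hf
@[fun_prop] theorem snd {f : α → β × γ} (hf : PR f) : PR (fun a => (f a).2) :=
  Primrec.snd.comp hf

@[fun_prop] theorem nat_add {f g : α → ℕ} (hf : PR f) (hg : PR g) : PR (fun a => f a + g a) :=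
  Primrec.nat_add.comp hf hg
@[fun_prop] theorem nat_mul {f g : α → ℕ} (hf : PR f) (hg : PR g) : PR (fun a => f a * g a) :=
  Primrec.nat_mul.comp hf hg
@[fun_prop] theorem nat_factorial {f : α → ℕ} (hf : PR f) : PR (fun a => (f a).factorial) := by
  have : Primrec (fun n : ℕ => (Nat.rec 1 (fun k c => (k + 1) * c) n : ℕ)) :=
    Primrec.nat_rec₁ 1 (Primrec.nat_mul.comp (Primrec.succ.comp Primrec.fst) Primrec.snd)
  refine (this.of_eq fun n => ?_).comp hf
  induction n with
  | zero => rfl
  | succ n ih => simp only [Nat.factorial_succ, ← ih]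
@[fun_prop] theorem rat_add {f g : α → ℚ} (hf : PR f) (hg : PR g) : PR (fun a => f a + g a) :=
  Lib.RatPrimrec.rat_add.comp hf hg
@[fun_prop] theorem rat_sub {f g : α → ℚ} (hf : PR f) (hg : PR g) : PR (fun a => f a - g a) :=
  Lib.RatPrimrec.rat_sub.comp hf hg
@[fun_prop] theorem rat_mul {f g : α → ℚ} (hf : PR f) (hg : PR g) : PR (fun a => f a * g a) :=
  Lib.RatPrimrec.rat_mul.comp hf hg
@[fun_prop] theorem rat_div {f g : α → ℚ} (hf : PR f) (hg : PR g) : PR (fun a => f a / g a) :=
  Lib.RatPrimrec.rat_div.comp hf hg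
@[fun_prop] theorem rat_pow {f : α → ℚ} {g : α → ℕ} (hf : PR f) (hg : PR g) :
    PR (fun a => f a ^ g a) := Lib.RatPrimrec.rat_pow.comp hf hg
@[fun_prop] theorem rat_natCast {f : α → ℕ} (hf : PR f) : PR (fun a => (f a : ℚ)) :=
  Lib.RatPrimrec.rat_natCast.comp hf

/-- comparison of rationals -/
def rle (x y : ℚ) : Bool := decide (x ≤ y)

@[fun_prop] theorem rat_rle {f g : α → ℚ} (hf : PR f) (hg : PR g) : PR (fun a => rle (f a) (g a)) :=
  (Lib.RatPrimrec.rat_le.comp hf hg).decide

@[fun_prop] theorem bool_and {f g : α → Bool} (hf : PR f) (hg : PR g) : PR (fun a => f a && g a) :=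
  Primrec.and.comp hf hg
@[fun_prop] theorem bool_not {f : α → Bool} (hf : PR f) : PR (fun a => !f a) :=
  Primrec.not.comp hf
@[fun_prop] theorem bool_xor {f g : α → Bool} (hf : PR f) (hg : PR g) :
    PR (fun a => xor (f a) (g a)) := (Primrec.dom_bool₂ xor).comp hf hg
@[fun_prop] theorem cond {c : α → Bool} {f g : α → β} (hc : PR c) (hf : PR f) (hg : PR g) :
    PR (fun a => cond (c a) (f a) (g a)) := Primrec.cond hc hf hg

@[fun_prop] theorem list_cons {f : α → β} {g : α → List β} (hf : PR f) (hg : PR g) :
    PR (fun a => f a :: g a) := Primrec.list_cons.comp hf hg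
@[fun_prop] theorem list_append {f g : α → List β} (hf : PR f) (hg : PR g) :
    PR (fun a => f a ++ g a) := Primrec.list_append.comp hf hg
@[fun_prop] theorem list_length {f : α → List β} (hf : PR f) : PR (fun a => (f a).length) :=
  Primrec.list_length.comp hf
@[fun_prop] theorem list_range {f : α → ℕ} (hf : PR f) : PR (fun a => List.range (f a)) :=
  Primrec.list_range.comp hf
@[fun_prop] theorem list_getD {f : α → List β} {g : α → ℕ} (d : β) (hf : PR f) (hg : PR g) :
    PR (fun a => (f a).getD (g a) d) := (Primrec.list_getD d).comp hf hg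
@[fun_prop] theorem list_map {f : α → List β} {g : α → β → γ} (hf : PR f)
    (hg : PR (fun p : α × β => g p.1 p.2)) : PR (fun a => (f a).map (g a)) :=
  Primrec.list_map hf hg
@[fun_prop] theorem list_sum {f : α → List ℚ} (hf : PR f) : PR (fun a => (f a).sum) :=
  rat_list_sum.comp hf
@[fun_prop] theorem list_prod {f : α → List ℚ} (hf : PR f) : PR (fun a => (f a).prod) := by
  have : Primrec fun l : List ℚ => l.foldr (fun a s => a * s) 1 :=
    Primrec.list_foldr Primrec.id (Primrec.const 1)
      (Lib.RatPrimrec.rat_mul.comp (Primrec.fst.comp Primrec.snd)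
        (Primrec.snd.comp Primrec.snd)).to₂
  exact (this.of_eq fun l => by rw [List.prod_eq_foldr]).comp hf
@[fun_prop] theorem list_all {f : α → List β} {g : α → β → Bool} (hf : PR f)
    (hg : PR (fun p : α × β => g p.1 p.2)) : PR (fun a => (f a).all (g a)) := by
  have : Primrec fun a => (f a).foldr (fun b s => g a b && s) true :=
    Primrec.list_foldr (h := fun a (p : β × Bool) => g a p.1 && p.2) hf (Primrec.const true)
      (Primrec.and.comp (Primrec.comp hg (Primrec.fst.pair (Primrec.fst.comp Primrec.snd)))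
        (Primrec.snd.comp Primrec.snd)).to₂
  refine this.of_eq fun a => ?_
  induction f a with
  | nil => rfl
  | cons b l ih => simp [ih]
@[fun_prop] theorem allL {L : α → List β} {m : α → ℕ} (hL : PR L) (hm : PR m) :
    PR (fun a => CompA.allL (L a) (m a)) := CompA.primrec_allL hL hm
@[fun_prop] theorem encode {f : α → β} (hf : PR f) : PR (fun a => Encodable.encode (f a)) :=
  Primrec.encode.comp hf

end PR

end Crest.Agent.R153.CompB
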