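import Crest.Agent.R153.CompB.PR

/-! The checker as a list program. -/

set_option autoImplicit false

namespace Crest.Agent.R153.CompB

open CompA PR

/-- a table with keys in `K` -/
def tb {K : Type} [Primcodable K] (T : List ℚ) (κ : K) : ℚ := T.getD (Encodable.encode κ) 0

def avg {β : Type} (L : List β) (f : β → ℚ) : ℚ := (L.map f).sum / (L.length : ℚ)

def lay (a l : ℕ) : List (List ℕ) := allL (List.range (a + 1)) l

def rel (b : Bool) (x y : ℚ) : Bool := cond b (rle x y) (rle y x)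

def ck (b : Bool) (R J r e : ℕ) (Lay : List (List ℕ)) (W Y : List (List ℕ) → ℚ) : Bool :=
  ((List.range (r + 1)).all fun d => (allL Lay (d + 1)).all fun pre => !(rle (Y pre) 0)) &&
  (((allL Lay (r + 1)).all fun pre => rel b (W pre) (Y pre ^ (R * J))) &&
  ((List.range r).all fun d => (allL Lay (d + 1)).all fun pre =>
    rel b (avg Lay fun v => Y (pre ++ [v]) ^ ((e + d) * J)) (Y pre ^ ((e + d) * J))))

def bits (l : ℕ) : List (List Bool) := allL [false, true] l

def mix (l : ℕ) (W : List Bool → ℚ) (p : ℕ → ℚ) : ℚ :=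
  ((bits l).map fun τ =>
    W τ * ((List.range l).map fun i => cond (τ.getD i false) (p i) (1 - p i)).prod).sum

def wq (q : ℚ) (f s : List Bool) : ℚ :=
  1 - (1 - q) *
    ((List.range 3).map fun i => cond (xor (s.getD i false) (f.getD i false)) (1 : ℚ) 0).prod

def siteq (q : ℚ) (θ : List (List Bool)) (τ : List Bool) : ℚ :=
  ([false, true].map fun ε => ((List.range θ.length).map fun j =>
    wq q (θ.getD j []) [τ.getD (2 * j) false, τ.getD (2 * j + 1) false, ε]).prod).sum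

def colp (P : List ℚ) (pre : List (List ℕ)) (i : ℕ) : ℚ := tb P (pre.map fun x => x.getD i 0)

def Wsite (q : ℚ) (P : List ℚ) (θ : List (List Bool)) (pre : List (List ℕ)) : ℚ :=
  mix (2 * θ.length) (fun τ => siteq q θ τ) (fun i => colp P pre i)

def Wedge (q : ℚ) (P : List ℚ) (f : List Bool) (pre : List (List ℕ)) : ℚ :=
  mix 3 (fun τ => wq q f τ) (fun i => colp P pre i)

def fup (N a : ℕ) (T : List ℚ) (k : ℕ) : ℚ :=
  avg (allL (bits 3) k) fun θ => avg (lay a (2 * k)) fun x => (N : ℚ) * (tb T (θ, [x]) - 1)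

def glo (N a : ℕ) (T : List ℚ) : ℚ :=
  avg (bits 3) fun f => avg (lay a 3) fun x => (N : ℚ) * (1 - 1 / tb T (f, [x]))

def ub (c : ℚ) (N a K J : ℕ) (T T' : List ℚ) : ℚ :=
  1 - ((List.range K).map fun k =>
    (1 - 3 * c / (J : ℚ)) ^ J * (3 * c) ^ k / (k.factorial : ℚ) * (1 - fup N a T k)).sum -
    2 * c * glo N a T'

def chk (c q : ℚ) (s r a : ℕ) (P : List ℚ) (K J : ℕ) (T T' : List ℚ) : Bool :=
  (!(rle q 0) && !(rle 1 q)) &&
  (((lay a (r + 1)).all fun κ => rle 0 (tb P κ) && rle (tb P κ) 1) &&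
  ((rle 1 (J : ℚ) && rle (3 * c) (J : ℚ)) &&
  (((List.range K).all fun k => (allL (bits 3) k).all fun θ =>
    ck true (s + r + 1) J r (s + 1) (lay a (2 * k)) (fun pre => Wsite q P θ pre)
      fun pre => tb T (θ, pre)) &&
  (((bits 3).all fun f =>
    ck false (s + r + 1) J r (s + 1) (lay a 3) (fun pre => Wedge q P f pre)
      fun pre => tb T' (f, pre)) &&
  !(rle 0 (ub c ((s + r + 1) * J) a K J T T'))))))

namespace PR

variable {α β : Type} [Primcodable α] [Primcodable β]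

@[fun_prop] theorem tb' {T : α → List ℚ} {κ : α → β} (hT : PR T) (hκ : PR κ) :
    PR fun x => tb (T x) (κ x) := by
  unfold tb; fun_prop

@[fun_prop] theorem avg' {L : α → List β} {f : α → β → ℚ} (hL : PR L)
    (hf : PR fun p : α × β => f p.1 p.2) : PR fun x => avg (L x) (f x) := by
  unfold avg; fun_prop

@[fun_prop] theorem lay' {a l : α → ℕ} (ha : PR a) (hl : PR l) : PR fun x => lay (a x) (l x) := by
  unfold lay; fun_prop

@[fun_prop] theorem rel' (b : Bool) {f g : α → ℚ} (hf : PR f) (hg : PR g) :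
    PR fun x => rel b (f x) (g x) := by
  unfold rel; fun_prop

@[fun_prop] theorem ck' (b : Bool) {R J r e : α → ℕ} {Lay : α → List (List ℕ)}
    {W Y : α → List (List ℕ) → ℚ} (hR : PR R) (hJ : PR J) (hr : PR r) (he : PR e) (hL : PR Lay)
    (hW : PR fun p : α × List (List ℕ) => W p.1 p.2)
    (hY : PR fun p : α × List (List ℕ) => Y p.1 p.2) :
    PR fun x => ck b (R x) (J x) (r x) (e x) (Lay x) (W x) (Y x) := by
  unfold ck; fun_prop

@[fun_prop] theorem bits' {l : α → ℕ} (hl : PR l) : PR fun x => bits (l x) := by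
  unfold bits; fun_prop

@[fun_prop] theorem mix' {l : α → ℕ} {W : α → List Bool → ℚ} {p : α → ℕ → ℚ} (hl : PR l)
    (hW : PR fun x : α × List Bool => W x.1 x.2) (hp : PR fun x : α × ℕ => p x.1 x.2) :
    PR fun x => mix (l x) (W x) (p x) := by
  unfold mix; fun_prop

@[fun_prop] theorem wq' {q : α → ℚ} {f s : α → List Bool} (hq : PR q) (hf : PR f) (hs : PR s) :
    PR fun x => wq (q x) (f x) (s x) := by
  unfold wq; fun_prop

@[fun_prop] theorem siteq' {q : α → ℚ} {θ : α → List (List Bool)} {τ : α → List Bool} (hq : PR q)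
    (hθ : PR θ) (hτ : PR τ) : PR fun x => siteq (q x) (θ x) (τ x) := by
  unfold siteq; fun_prop

@[fun_prop] theorem colp' {P : α → List ℚ} {pre : α → List (List ℕ)} {i : α → ℕ} (hP : PR P)
    (hp : PR pre) (hi : PR i) : PR fun x => colp (P x) (pre x) (i x) := by
  unfold colp; fun_prop

@[fun_prop] theorem Wsite' {q : α → ℚ} {P : α → List ℚ} {θ : α → List (List Bool)}
    {pre : α → List (List ℕ)} (hq : PR q) (hP : PR P) (hθ : PR θ) (hp : PR pre) :
    PR fun x => Wsite (q x) (P x) (θ x) (pre x) := by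
  unfold Wsite; fun_prop

@[fun_prop] theorem Wedge' {q : α → ℚ} {P : α → List ℚ} {f : α → List Bool}
    {pre : α → List (List ℕ)} (hq : PR q) (hP : PR P) (hf : PR f) (hp : PR pre) :
    PR fun x => Wedge (q x) (P x) (f x) (pre x) := by
  unfold Wedge; fun_prop

@[fun_prop] theorem fup' {N a k : α → ℕ} {T : α → List ℚ} (hN : PR N) (ha : PR a) (hT : PR T)
    (hk : PR k) : PR fun x => fup (N x) (a x) (T x) (k x) := by
  unfold fup; fun_prop

@[fun_prop] theorem glo' {N a : α → ℕ} {T : α → List ℚ} (hN : PR N) (ha : PR a) (hT : PR T) :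
    PR fun x => glo (N x) (a x) (T x) := by
  unfold glo; fun_prop

@[fun_prop] theorem ub' {c : α → ℚ} {N a K J : α → ℕ} {T T' : α → List ℚ} (hc : PR c) (hN : PR N)
    (ha : PR a) (hK : PR K) (hJ : PR J) (hT : PR T) (hT' : PR T') :
    PR fun x => ub (c x) (N x) (a x) (K x) (J x) (T x) (T' x) := by
  unfold ub; fun_prop

@[fun_prop] theorem chk' {c q : α → ℚ} {s r a K J : α → ℕ} {P T T' : α → List ℚ} (hc : PR c)
    (hq : PR q) (hs : PR s) (hr : PR r) (ha : PR a) (hP : PR P) (hK : PR K) (hJ : PR J) (hT : PR T)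
    (hT' : PR T') :
    PR fun x => chk (c x) (q x) (s x) (r x) (a x) (P x) (K x) (J x) (T x) (T' x) := by
  unfold chk; fun_prop

end PR

abbrev Wit : Type := ℚ × ℕ × ℕ × ℕ × List ℚ × ℕ × ℕ × List ℚ × List ℚ

def chkW (c : ℚ) (x : Wit) : Bool :=
  chk c x.1 x.2.1 x.2.2.1 x.2.2.2.1 x.2.2.2.2.1 x.2.2.2.2.2.1 x.2.2.2.2.2.2.1 x.2.2.2.2.2.2.2.1
    x.2.2.2.2.2.2.2.2

theorem pr_chkW : PR fun p : ℚ × Wit => chkW p.1 p.2 := by
  unfold chkW; fun_prop

theorem exists_B_aux {X : Type} [Primcodable X] (x₀ : X) {F : ℚ → X → Bool}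
    (h1 : PR fun p : ℚ × X => F p.1 p.2) : ∃ B : ℚ × ℕ → Bool, Computable B ∧
      ∀ c : ℚ, (∃ w, B (c, w) = true) ↔ ∃ x, F c x = true := by
  have h2 : Primrec fun p : ℚ × ℕ => (p.1, (Encodable.decode (α := X) p.2).getD x₀) :=
    Primrec.fst.pair (Primrec.option_getD.comp (Primrec.decode.comp Primrec.snd) (Primrec.const _))
  refine ⟨fun p => F p.1 ((Encodable.decode (α := X) p.2).getD x₀),
    (Primrec.comp h1 h2).to_comp, fun c => ⟨?_, ?_⟩⟩
  · rintro ⟨w, hw⟩
    exact ⟨_, hw⟩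
  · rintro ⟨x, h⟩
    refine ⟨Encodable.encode x, ?_⟩
    simp only [Encodable.encodek, Option.getD_some]
    exact h

theorem exists_B : ∃ B : ℚ × ℕ → Bool, Computable B ∧ ∀ c : ℚ, (∃ w, B (c, w) = true) ↔
    ∃ q s r a P K J T T', chk c q s r a P K J T T' = true := by
  obtain ⟨B, hB, h⟩ := exists_B_aux (0, 0, 0, 0, [], 0, 0, [], []) pr_chkW
  refine ⟨B, hB, fun c => (h c).trans ⟨?_, ?_⟩⟩
  · rintro ⟨⟨q, s, r, a, P, K, J, T, T'⟩, hx⟩
    exact ⟨q, s, r, a, P, K, J, T, T', hx⟩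
  · rintro ⟨q, s, r, a, P, K, J, T, T', hx⟩
    exact ⟨(q, s, r, a, P, K, J, T, T'), hx⟩

theorem exists_tb {K : Type} [Primcodable K] {S : Set K} (hS : S.Finite) (f : K → ℚ) :
    ∃ T : List ℚ, ∀ κ ∈ S, tb T κ = f κ := by
  obtain ⟨n, hn⟩ := (hS.image Encodable.encode).bddAbove
  refine ⟨(List.range (n + 1)).map fun i => ((Encodable.decode (α := K) i).map f).getD 0,
    fun κ hκ => ?_⟩
  have h : Encodable.encode κ < n + 1 := Nat.lt_succ_of_le (hn ⟨κ, hκ, rfl⟩)
  simp [tb, List.getD_eq_getElem?_getD, h]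

end Crest.Agent.R153.CompB
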